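import Mathlib

/-!
# P192: piecewise increasing permutations of a linearly ordered set: definitions
-/

namespace Vale.Agent.P192.Giet

variable {G X : Type} [Group G] [LinearOrder X] [MulAction G X]

/-- `g` maps the convex set `D' \ D` increasingly onto the convex set `E' \ E`. -/
structure Rect (g : G) (D D' E E' : LowerSet X) : Prop where
  le : D ≤ D'
  le' : E ≤ E'
  mono : ∀ x, x ∈ D' → x ∉ D → ∀ y, y ∈ D' → y ∉ D → x < y → g • x < g • y
  maps : ∀ x, (x ∈ D' ∧ x ∉ D) ↔ (g • x ∈ E' ∧ g • x ∉ E)

/-- an invariant finitely additive probability on the convex sets -/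
structure Meas (G : Type) {X : Type} [Group G] [LinearOrder X] [MulAction G X]
    (m : LowerSet X → ℝ) : Prop where
  mono : Monotone m
  bot : m ⊥ = 0
  top : m ⊤ = 1
  inv : ∀ (g : G) (D D' E E' : LowerSet X), Rect g D D' E E' → m D' - m D = m E' - m E

/-- `g` is increasing between consecutive cuts of a finite set of cuts -/
def PI (X : Type) [LinearOrder X] [MulAction G X] (g : G) : Prop :=
  ∃ Z : Set (LowerSet X), Z.Finite ∧ ∀ x y : X, x < y → (∀ L ∈ Z, x ∈ L → y ∈ L) →
    g • x < g • y

end Vale.Agent.P192.Giet
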